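import Vale.Agent.Brouwer.Retract

/-!
# Brouwer, part 2: the fixed point theorem
-/

namespace Brouwer

open MeasureTheory Set Metric Topology

/-- smooth maps of the closed ball into the open ball have fixed points -/
theorem smooth_fixed {n : ℕ} (g : EuclideanSpace ℝ (Fin n) → EuclideanSpace ℝ (Fin n))
    (hg : ContDiff ℝ 1 g) (hmap : ∀ x ∈ closedBall (0 : EuclideanSpace ℝ (Fin n)) 1, ‖g x‖ < 1) :
    ∃ x ∈ closedBall (0 : EuclideanSpace ℝ (Fin n)) 1, g x = x := by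
  by_contra hno
  push Not at hno
  -- `w x = x - g x`
  have hw : ∀ x ∈ closedBall (0 : EuclideanSpace ℝ (Fin n)) 1, 0 < ‖x - g x‖ ^ 2 := by
    intro x hx
    have : 0 < ‖x - g x‖ := norm_pos_iff.2 (sub_ne_zero.2 (Ne.symm (hno x hx)))
    positivity
  have hxg : ∀ x, ‖x‖ = 1 → 0 < inner ℝ x (x - g x) := by
    intro x hx
    rw [inner_sub_right, real_inner_self_eq_norm_sq, hx]
    have h1 := real_inner_le_norm x (g x)
    have h2 := hmap x (mem_closedBall_zero_iff.2 hx.le)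
    rw [hx, one_mul] at h1
    linarith
  have hD : ∀ x ∈ closedBall (0 : EuclideanSpace ℝ (Fin n)) 1,
      0 < inner ℝ x (x - g x) ^ 2 + ‖x - g x‖ ^ 2 * (1 - ‖x‖ ^ 2) := by
    intro x hx
    have hx1 : ‖x‖ ≤ 1 := mem_closedBall_zero_iff.1 hx
    rcases hx1.lt_or_eq with hlt | heq
    · have h1 : 0 < 1 - ‖x‖ ^ 2 := by nlinarith [norm_nonneg x]
      have h2 := mul_pos (hw x hx) h1
      positivity
    · rw [heq]
      have := hxg x heq
      have : 0 < inner ℝ x (x - g x) ^ 2 := by positivity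
      linarith
  set lam : EuclideanSpace ℝ (Fin n) → ℝ := fun x =>
    (-(inner ℝ x (x - g x)) + Real.sqrt (inner ℝ x (x - g x) ^ 2 +
      ‖x - g x‖ ^ 2 * (1 - ‖x‖ ^ 2))) / ‖x - g x‖ ^ 2 with hlam
  refine no_retraction (fun x => x + lam x • (x - g x)) ?_ ?_ ?_
  · intro x hx
    have hwd : ContDiffAt ℝ 1 (fun x => x - g x) x := contDiffAt_id.sub hg.contDiffAt
    have hin : ContDiffAt ℝ 1 (fun x => inner ℝ x (x - g x)) x := contDiffAt_id.inner ℝ hwd
    have hn1 : ContDiffAt ℝ 1 (fun x => ‖x - g x‖ ^ 2) x := hwd.norm_sq ℝ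
    have hn2 : ContDiffAt ℝ 1 (fun x : EuclideanSpace ℝ (Fin n) => ‖x‖ ^ 2) x :=
      contDiffAt_id.norm_sq ℝ
    have hrad : ContDiffAt ℝ 1 (fun x => inner ℝ x (x - g x) ^ 2 +
        ‖x - g x‖ ^ 2 * (1 - ‖x‖ ^ 2)) x :=
      (hin.pow 2).add (hn1.mul (contDiffAt_const.sub hn2))
    have hl : ContDiffAt ℝ 1 lam x :=
      (hin.neg.add (hrad.sqrt (hD x hx).ne')).div hn1 (hw x hx).ne'
    exact contDiffAt_id.add (hl.smul hwd)
  · intro x hx
    have h0 : lam x = 0 := by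
      simp only [hlam]
      rw [hx]
      have h1 := hxg x hx
      rw [one_pow, sub_self, mul_zero, add_zero, Real.sqrt_sq h1.le, neg_add_cancel, zero_div]
    rw [h0, zero_smul, add_zero]
  · intro x hx
    have h1 : ‖x + lam x • (x - g x)‖ ^ 2 = 1 := by
      have hnx := hw x hx
      have hsq := Real.sq_sqrt (hD x hx).le
      set s := Real.sqrt (inner ℝ x (x - g x) ^ 2 + ‖x - g x‖ ^ 2 * (1 - ‖x‖ ^ 2)) with hs
      have hl : lam x * ‖x - g x‖ ^ 2 = -(inner ℝ x (x - g x)) + s := by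
        simp only [hlam]
        rw [div_mul_cancel₀ _ hnx.ne']
      rw [norm_add_sq_real, norm_smul, mul_pow, inner_smul_right, Real.norm_eq_abs, sq_abs]
      have h2 : (lam x ^ 2 * ‖x - g x‖ ^ 2 + 2 * (lam x * inner ℝ x (x - g x)) + ‖x‖ ^ 2 - 1) *
          ‖x - g x‖ ^ 2 = 0 := by
        have e : (lam x ^ 2 * ‖x - g x‖ ^ 2 + 2 * (lam x * inner ℝ x (x - g x)) + ‖x‖ ^ 2 - 1) *
          ‖x - g x‖ ^ 2 = (lam x * ‖x - g x‖ ^ 2) ^ 2 +
            2 * (lam x * ‖x - g x‖ ^ 2) * inner ℝ x (x - g x) +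
            (‖x‖ ^ 2 - 1) * ‖x - g x‖ ^ 2 := by ring
        rw [e, hl]
        have e2 : (-(inner ℝ x (x - g x)) + s) ^ 2 +
            2 * (-(inner ℝ x (x - g x)) + s) * inner ℝ x (x - g x) +
            (‖x‖ ^ 2 - 1) * ‖x - g x‖ ^ 2 = s ^ 2 - (inner ℝ x (x - g x) ^ 2 +
              ‖x - g x‖ ^ 2 * (1 - ‖x‖ ^ 2)) := by ring
        rw [e2, hsq, sub_self]
      have h3 := (mul_eq_zero.1 h2).resolve_right hnx.ne'
      linarith
    have h2 : 0 ≤ ‖x + lam x • (x - g x)‖ := norm_nonneg _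
    nlinarith

/-- Brouwer for the closed unit ball of `ℝⁿ` -/
theorem ball_fixed {n : ℕ} (f : EuclideanSpace ℝ (Fin n) → EuclideanSpace ℝ (Fin n))
    (hf : Continuous f) (hmap : ∀ x, ‖f x‖ ≤ 1) :
    ∃ x ∈ closedBall (0 : EuclideanSpace ℝ (Fin n)) 1, f x = x := by
  by_contra hno
  push Not at hno
  obtain ⟨x0, hx0, hmin⟩ := (isCompact_closedBall (0 : EuclideanSpace ℝ (Fin n)) 1).exists_isMinOn
    ⟨0, mem_closedBall_self zero_le_one⟩ (f := fun x => ‖f x - x‖) (by fun_prop)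
  set δ := ‖f x0 - x0‖ with hδ
  have hδ0 : 0 < δ := norm_pos_iff.2 (sub_ne_zero.2 (hno x0 hx0))
  have hδmin : ∀ x ∈ closedBall (0 : EuclideanSpace ℝ (Fin n)) 1, δ ≤ ‖f x - x‖ := fun x hx =>
    hmin hx
  -- smooth approximation
  obtain ⟨p, hp⟩ := exists_contMDiffMap_forall_mem_convex_of_local_const (n := 1)
    (modelWithCornersSelf ℝ (EuclideanSpace ℝ (Fin n))) (t := fun x => ball (f x) (δ / 4))
    (fun x => convex_ball _ _) (fun x => by
      refine ⟨f x, ?_⟩
      have := hf.continuousAt.eventually (ball_mem_nhds (f x) (by positivity : 0 < δ / 4))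
      filter_upwards [this] with y hy
      rw [mem_ball_comm]
      exact hy)
  have hpd : ContDiff ℝ 1 p := p.contMDiff.contDiff
  set κ : ℝ := (1 + δ / 2)⁻¹ with hκ
  have hκ0 : 0 < κ := by positivity
  have hpn : ∀ x, ‖p x - f x‖ < δ / 4 := fun x => by
    have := hp x
    rwa [mem_ball, dist_eq_norm] at this
  have hpn2 : ∀ x, ‖p x‖ < 1 + δ / 4 := fun x => by
    calc ‖p x‖ = ‖f x + (p x - f x)‖ := by congr 1; abel
      _ ≤ ‖f x‖ + ‖p x - f x‖ := norm_add_le _ _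
      _ < 1 + δ / 4 := add_lt_add_of_le_of_lt (hmap x) (hpn x)
  obtain ⟨x, hx, hxfix⟩ := smooth_fixed (fun x => κ • p x) (hpd.const_smul κ) (fun x _ => by
    rw [norm_smul, Real.norm_of_nonneg hκ0.le, hκ, inv_mul_lt_iff₀ (by positivity)]
    linarith [hpn2 x])
  have h1 := hδmin x hx
  have hκ1 : κ * (1 + δ / 2) = 1 := inv_mul_cancel₀ (by positivity)
  have h2 : ‖p x - κ • p x‖ < δ / 2 := by
    have e : p x - κ • p x = (1 - κ) • p x := by rw [sub_smul, one_smul]
    have hk1 : κ ≤ 1 := by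
      rw [hκ]
      exact inv_le_one_of_one_le₀ (by linarith)
    rw [e, norm_smul, Real.norm_of_nonneg (by linarith)]
    have h3 : (1 - κ) * ‖p x‖ ≤ (1 - κ) * (1 + δ / 4) :=
      mul_le_mul_of_nonneg_left (hpn2 x).le (by linarith)
    have h4 : (1 - κ) = κ * (δ / 2) := by linarith
    have h5 : κ * (1 + δ / 4) < 1 := by
      calc κ * (1 + δ / 4) < κ * (1 + δ / 2) := mul_lt_mul_of_pos_left (by linarith) hκ0
        _ = 1 := hκ1
    calc (1 - κ) * ‖p x‖ ≤ (1 - κ) * (1 + δ / 4) := h3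
      _ = (δ / 2) * (κ * (1 + δ / 4)) := by rw [h4]; ring
      _ < (δ / 2) * 1 := mul_lt_mul_of_pos_left h5 (by positivity)
      _ = δ / 2 := mul_one _
  have h3 : ‖f x - x‖ < δ := by
    have hxe : x = κ • p x := hxfix.symm
    calc ‖f x - x‖ = ‖f x - κ • p x‖ := by rw [← hxe]
      _ = ‖-(p x - f x) + (p x - κ • p x)‖ := by congr 1; abel
      _ ≤ ‖-(p x - f x)‖ + ‖p x - κ • p x‖ := norm_add_le _ _
      _ = ‖p x - f x‖ + ‖p x - κ • p x‖ := by rw [norm_neg]
      _ < δ / 4 + δ / 2 := add_lt_add (hpn x) h2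
      _ < δ := by linarith
  linarith

/-- **Brouwer fixed point theorem**: a continuous self-map of a nonempty compact convex subset of a
finite-dimensional real normed space has a fixed point. -/
theorem brouwer {V : Type*} [NormedAddCommGroup V] [NormedSpace ℝ V] [FiniteDimensional ℝ V]
    {C : Set V} (hc : IsCompact C) (hv : Convex ℝ C) (hn : C.Nonempty) {f : V → V}
    (hf : ContinuousOn f C) (hm : MapsTo f C C) : ∃ x ∈ C, f x = x := by
  obtain ⟨e⟩ : Nonempty (V ≃L[ℝ] EuclideanSpace ℝ (Fin (Module.finrank ℝ V))) :=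
    ⟨ContinuousLinearEquiv.ofFinrankEq (by simp)⟩
  set n := Module.finrank ℝ V with hndef
  -- the image of `C`
  set D : Set (EuclideanSpace ℝ (Fin n)) := e '' C with hD
  have hDc : IsCompact D := hc.image e.continuous
  have hDv : Convex ℝ D := hv.linear_image (e : V →ₗ[ℝ] EuclideanSpace ℝ (Fin n))
  have hDn : D.Nonempty := hn.image e
  obtain ⟨π, hπL, hπC, hπid, -⟩ := exists_proj hDc.isClosed.isComplete hDv hDn
  obtain ⟨R, hR⟩ := hDc.isBounded.exists_norm_le
  set ρ : ℝ := max R 1 with hρ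
  have hρ1 : 1 ≤ ρ := le_max_right _ _
  have hρ0 : 0 < ρ := by linarith
  have hmemC : ∀ z, e.symm (π z) ∈ C := by
    intro z
    obtain ⟨c, hcC, hce⟩ := hπC z
    rw [← hce]
    simpa using hcC
  -- the self-map of the unit ball
  set F : EuclideanSpace ℝ (Fin n) → EuclideanSpace ℝ (Fin n) :=
    fun z => ρ⁻¹ • e (f (e.symm (π (ρ • z)))) with hF
  have hFc : Continuous F := by
    have h1 : Continuous (fun z => e.symm (π (ρ • z))) :=
      e.symm.continuous.comp (hπL.continuous.comp (continuous_const_smul ρ))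
    have h2 : Continuous (fun z => f (e.symm (π (ρ • z)))) :=
      hf.comp_continuous h1 fun z => hmemC _
    exact (e.continuous.comp h2).const_smul ρ⁻¹
  have hFb : ∀ z, ‖F z‖ ≤ 1 := by
    intro z
    have h1 : e (f (e.symm (π (ρ • z)))) ∈ D := mem_image_of_mem e (hm (hmemC _))
    have h2 : ‖e (f (e.symm (π (ρ • z))))‖ ≤ ρ := (hR _ h1).trans (le_max_left _ _)
    rw [hF]
    simp only
    rw [norm_smul, norm_inv, Real.norm_of_nonneg hρ0.le, inv_mul_le_iff₀ hρ0, mul_one]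
    exact h2
  obtain ⟨z, -, hz⟩ := ball_fixed F hFc hFb
  set y := f (e.symm (π (ρ • z))) with hy
  have h1 : ρ • z = e y := by
    rw [← hz, hF]
    simp only
    rw [smul_inv_smul₀ hρ0.ne']
  have hyC : y ∈ C := hm (hmemC _)
  refine ⟨y, hyC, ?_⟩
  have h2 : π (ρ • z) = ρ • z := hπid _ (by rw [h1]; exact mem_image_of_mem e hyC)
  have h3 : e.symm (π (ρ • z)) = y := by rw [h2, h1, e.symm_apply_apply]
  conv_lhs => rw [← h3]

end Brouwer
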