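import Mathlib

/-!
# Brouwer, part 1: there is no `C^1` retraction of the closed ball onto the sphere

Milnor-Rogers argument: `f_t = id + t h` maps the open ball bijectively onto itself for small `t`, so
the polynomial `∫ det (D f_t)` is constant.
-/

namespace Brouwer

open MeasureTheory Set Metric

section proj

variable {F : Type*} [NormedAddCommGroup F] [InnerProductSpace ℝ F]

/-- nearest point projection -/
theorem exists_proj {C : Set F} (hc : IsComplete C) (hv : Convex ℝ C) (hn : C.Nonempty) :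
    ∃ π : F → F, LipschitzWith 1 π ∧ (∀ x, π x ∈ C) ∧ (∀ x ∈ C, π x = x) ∧
      ∀ x, ∀ w ∈ C, inner ℝ (x - π x) (w - π x) ≤ 0 := by
  have h := exists_norm_eq_iInf_of_complete_convex hn hc hv
  choose π hπC hπ using h
  have hin : ∀ x, ∀ w ∈ C, inner ℝ (x - π x) (w - π x) ≤ 0 := fun x =>
    (norm_eq_iInf_iff_real_inner_le_zero hv (hπC x)).1 (hπ x)
  refine ⟨π, ?_, hπC, ?_, hin⟩
  · refine LipschitzWith.of_dist_le_mul fun x y => ?_
    rw [NNReal.coe_one, one_mul, dist_eq_norm, dist_eq_norm]
    have h1 := hin x (π y) (hπC y)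
    have h2 := hin y (π x) (hπC x)
    have h3 : inner ℝ (x - y) (π x - π y) ≥ ‖π x - π y‖ ^ 2 := by
      rw [← real_inner_self_eq_norm_sq]
      simp only [inner_sub_left, inner_sub_right] at h1 h2 ⊢
      rw [real_inner_comm (π x) (π y)] at *
      linarith
    have h4 := real_inner_le_norm (x - y) (π x - π y)
    by_cases h0 : ‖π x - π y‖ = 0
    · rw [h0]; exact norm_nonneg _
    · have h5 : 0 < ‖π x - π y‖ := lt_of_le_of_ne (norm_nonneg _) (Ne.symm h0)
      nlinarith
  · intro x hx
    have := hin x x hx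
    rw [real_inner_self_eq_norm_sq] at this
    have h0 : ‖x - π x‖ = 0 := by nlinarith [norm_nonneg (x - π x)]
    exact (sub_eq_zero.1 (norm_eq_zero.1 h0)).symm

end proj

section poly

/-- values of `det (1 + t A)` at `t = 1` from the values at the nodes -/
theorem det_interp {n : ℕ} (v : Fin (n + 1) → ℝ) (hv : Function.Injective v) :
    ∃ c : Fin (n + 1) → ℝ, ∑ i, c i = 1 ∧
      ∀ A : Matrix (Fin n) (Fin n) ℝ, (1 + A).det = ∑ i, c i * (1 + v i • A).det := by
  classical
  refine ⟨fun i => (Lagrange.basis Finset.univ v i).eval 1, ?_, ?_⟩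
  · have h := Lagrange.sum_basis (s := Finset.univ) (v := v) hv.injOn Finset.univ_nonempty
    have h2 := congrArg (Polynomial.eval 1) h
    rw [Polynomial.eval_finsetSum, Polynomial.eval_one] at h2
    exact h2
  · intro A
    set P : Polynomial ℝ := Matrix.det ((Polynomial.X : Polynomial ℝ) • A.map Polynomial.C +
      (1 : Matrix (Fin n) (Fin n) ℝ).map Polynomial.C) with hP
    have hdeg : P.degree < (Finset.univ : Finset (Fin (n + 1))).card := by
      have h1 := Polynomial.natDegree_det_X_add_C_le A (1 : Matrix (Fin n) (Fin n) ℝ)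
      rw [Fintype.card_fin] at h1
      rw [Finset.card_univ, Fintype.card_fin]
      refine lt_of_le_of_lt Polynomial.degree_le_natDegree ?_
      exact_mod_cast Nat.lt_succ_of_le h1
    have hev : ∀ t : ℝ, P.eval t = (1 + t • A).det := by
      intro t
      rw [hP, ← Polynomial.coe_evalRingHom, RingHom.map_det]
      congr 1
      ext i j
      simp [Matrix.one_apply, Matrix.map_apply, add_comm]
      split_ifs <;> simp [mul_comm]
    have h := Lagrange.eq_interpolate (s := Finset.univ) (v := v) hv.injOn hdeg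
    have h2 := congrArg (Polynomial.eval 1) h
    rw [Lagrange.interpolate_apply, Polynomial.eval_finsetSum, hev 1, one_smul] at h2
    rw [h2]
    refine Finset.sum_congr rfl fun i _ => ?_
    rw [Polynomial.eval_mul, Polynomial.eval_C, hev, mul_comm]

end poly

section main

variable {n : ℕ}

/-- determinant of a small perturbation of the identity -/
theorem det_pos_of_small {F : Type*} [NormedAddCommGroup F] [NormedSpace ℝ F]
    [FiniteDimensional ℝ F] (M : F →L[ℝ] F) {t : ℝ} (ht : 0 ≤ t) (hM : t * ‖M‖ < 1) :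
    0 < (ContinuousLinearMap.id ℝ F + t • M).det := by
  have hne : ∀ s ∈ Icc (0 : ℝ) t, (ContinuousLinearMap.id ℝ F + s • M).det ≠ 0 := by
    intro s hs h0
    have hk : LinearMap.ker ((ContinuousLinearMap.id ℝ F + s • M : F →L[ℝ] F) : F →ₗ[ℝ] F) ≠ ⊥ := by
      intro hb
      have h1 : IsUnit (LinearMap.det ((ContinuousLinearMap.id ℝ F + s • M : F →L[ℝ] F) :
          F →ₗ[ℝ] F)) :=
        (LinearEquiv.ofInjectiveEndo _ (LinearMap.ker_eq_bot.1 hb)).isUnit_det'
      exact h1.ne_zero h0
    obtain ⟨x, hx, hx0⟩ := (Submodule.ne_bot_iff _).1 hk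
    have h2 : x + s • M x = 0 := by simpa using hx
    have h3 : ‖x‖ ≤ s * (‖M‖ * ‖x‖) := by
      have : x = -(s • M x) := eq_neg_of_add_eq_zero_left h2
      calc ‖x‖ = ‖-(s • M x)‖ := congrArg norm this
        _ = ‖s • M x‖ := norm_neg _
        _ = s * ‖M x‖ := by rw [norm_smul, Real.norm_of_nonneg hs.1]
        _ ≤ s * (‖M‖ * ‖x‖) := mul_le_mul_of_nonneg_left (M.le_opNorm x) hs.1
    have h4 : 0 < ‖x‖ := norm_pos_iff.2 hx0
    have h5 : s * ‖M‖ ≤ t * ‖M‖ := mul_le_mul_of_nonneg_right hs.2 (norm_nonneg _)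
    nlinarith
  have hcont : ContinuousOn (fun s : ℝ => (ContinuousLinearMap.id ℝ F + s • M).det) (Icc 0 t) := by
    refine Continuous.continuousOn ?_
    exact ContinuousLinearMap.continuous_det.comp (by fun_prop)
  have h0 : (fun s : ℝ => (ContinuousLinearMap.id ℝ F + s • M).det) 0 = 1 := by
    simp [ContinuousLinearMap.det]
  by_contra hneg
  push Not at hneg
  have hmem : (0 : ℝ) ∈ Icc ((fun s : ℝ => (ContinuousLinearMap.id ℝ F + s • M).det) t)
      ((fun s : ℝ => (ContinuousLinearMap.id ℝ F + s • M).det) 0) := by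
    rw [h0]; exact ⟨hneg, zero_le_one⟩
  obtain ⟨s, hs, hs0⟩ := intermediate_value_Icc' ht hcont hmem
  exact hne s hs hs0

theorem det_interp_clm {n : ℕ} (v : Fin (n + 1) → ℝ) (hv : Function.Injective v) :
    ∃ c : Fin (n + 1) → ℝ, ∑ i, c i = 1 ∧
      ∀ M : EuclideanSpace ℝ (Fin n) →L[ℝ] EuclideanSpace ℝ (Fin n),
        (ContinuousLinearMap.id ℝ _ + M).det =
          ∑ i, c i * (ContinuousLinearMap.id ℝ _ + v i • M).det := by
  obtain ⟨c, hc, h⟩ := det_interp v hv
  refine ⟨c, hc, fun M => ?_⟩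
  set b := (EuclideanSpace.basisFun (Fin n) ℝ).toBasis with hb
  have key : ∀ t : ℝ, (ContinuousLinearMap.id ℝ (EuclideanSpace ℝ (Fin n)) + t • M).det =
      (1 + t • LinearMap.toMatrix b b (M : EuclideanSpace ℝ (Fin n) →ₗ[ℝ] _)).det := by
    intro t
    unfold ContinuousLinearMap.det
    rw [← LinearMap.det_toMatrix b]
    congr 1
    simp
  have h1 := key 1
  rw [one_smul, one_smul] at h1
  rw [h1, h]
  exact Finset.sum_congr rfl fun i _ => by rw [key]

/-- there is no `C^1` retraction of the closed unit ball onto the sphere -/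
theorem no_retraction {n : ℕ} (r : EuclideanSpace ℝ (Fin n) → EuclideanSpace ℝ (Fin n))
    (hr : ∀ x ∈ closedBall (0 : EuclideanSpace ℝ (Fin n)) 1, ContDiffAt ℝ 1 r x)
    (hs : ∀ x, ‖x‖ = 1 → r x = x)
    (h1 : ∀ x ∈ closedBall (0 : EuclideanSpace ℝ (Fin n)) 1, ‖r x‖ = 1) : False := by
  classical
  have hcompl : IsComplete (closedBall (0 : (EuclideanSpace ℝ (Fin n))) 1) := isClosed_closedBall.isComplete
  obtain ⟨π, hπL, hπC, hπid, hπin⟩ := exists_proj hcompl (convex_closedBall (0 : (EuclideanSpace ℝ (Fin n))) 1)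
    ⟨0, mem_closedBall_self zero_le_one⟩
  -- outside the open ball the projection lands on the sphere
  have hπS : ∀ x : (EuclideanSpace ℝ (Fin n)), 1 ≤ ‖x‖ → ‖π x‖ = 1 := by
    intro x hx
    by_contra hne
    have hlt : ‖π x‖ < 1 := lt_of_le_of_ne (mem_closedBall_zero_iff.1 (hπC x)) hne
    have hxne : x ≠ π x := by
      intro h; rw [← h] at hlt; linarith
    have hpos : 0 < ‖x - π x‖ := norm_pos_iff.2 (sub_ne_zero.2 hxne)
    set ε := (1 - ‖π x‖) / ‖x - π x‖ with hε
    have hεpos : 0 < ε := div_pos (by linarith) hpos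
    have hw : π x + ε • (x - π x) ∈ closedBall (0 : (EuclideanSpace ℝ (Fin n))) 1 := by
      rw [mem_closedBall_zero_iff]
      calc ‖π x + ε • (x - π x)‖ ≤ ‖π x‖ + ‖ε • (x - π x)‖ := norm_add_le _ _
        _ = ‖π x‖ + ε * ‖x - π x‖ := by rw [norm_smul, Real.norm_of_nonneg hεpos.le]
        _ = 1 := by rw [hε, div_mul_cancel₀ _ hpos.ne']; ring
    have := hπin x _ hw
    rw [add_sub_cancel_left, inner_smul_right, real_inner_self_eq_norm_sq] at this
    have h3 : 0 < ε * ‖x - π x‖ ^ 2 := by positivity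
    linarith
  -- the perturbation
  have hrC : ContDiffOn ℝ 1 r (closedBall 0 1) := fun x hx => (hr x hx).contDiffWithinAt
  obtain ⟨K, hK⟩ := hrC.exists_lipschitzOnWith one_ne_zero (convex_closedBall (0 : (EuclideanSpace ℝ (Fin n))) 1)
    (isCompact_closedBall _ _)
  set h : (EuclideanSpace ℝ (Fin n)) → (EuclideanSpace ℝ (Fin n)) := fun x => r (π x) - π x with hh
  have hhL : LipschitzWith (K + 1) h := by
    refine LipschitzWith.of_dist_le_mul fun x y => ?_
    have e1 := hK.dist_le_mul (π x) (hπC x) (π y) (hπC y)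
    have e2 := hπL.dist_le_mul x y
    rw [NNReal.coe_one, one_mul] at e2
    rw [NNReal.coe_add, NNReal.coe_one, hh]
    calc dist (r (π x) - π x) (r (π y) - π y) ≤ dist (r (π x)) (r (π y)) + dist (π x) (π y) :=
          dist_sub_sub_le _ _ _ _
      _ ≤ K * dist (π x) (π y) + dist (π x) (π y) := by linarith
      _ ≤ K * dist x y + dist x y := by
          have := mul_le_mul_of_nonneg_left e2 K.coe_nonneg
          linarith
      _ = (K + 1) * dist x y := by ring
  have hh0 : ∀ x : (EuclideanSpace ℝ (Fin n)), 1 ≤ ‖x‖ → h x = 0 := by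
    intro x hx
    rw [hh]
    simp only
    rw [hs _ (hπS x hx), sub_self]
  have hhin : ∀ x ∈ closedBall (0 : (EuclideanSpace ℝ (Fin n))) 1, h x = r x - x := by
    intro x hx
    rw [hh]
    simp only
    rw [hπid x hx]
  set L : ℝ := (K : ℝ) + 1 with hLdef
  have hL : 0 < L := by rw [hLdef]; positivity
  -- `f_t` is injective and maps the open ball onto itself
  have hinj : ∀ t : ℝ, 0 ≤ t → t * L < 1 → Function.Injective (fun x => x + t • h x) := by
    intro t ht0 ht x y hxy
    simp only at hxy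
    have e1 : x - y = t • (h y - h x) := by
      rw [smul_sub]
      have := hxy
      rw [← sub_eq_zero] at this ⊢
      rw [← this]; abel
    have e2 : ‖x - y‖ ≤ t * (L * ‖x - y‖) := by
      have := hhL.dist_le_mul y x
      rw [dist_eq_norm, dist_eq_norm, NNReal.coe_add, NNReal.coe_one, ← hLdef,
        norm_sub_rev y x] at this
      calc ‖x - y‖ = ‖t • (h y - h x)‖ := congrArg norm e1
        _ = t * ‖h y - h x‖ := by rw [norm_smul, Real.norm_of_nonneg ht0]
        _ ≤ _ := mul_le_mul_of_nonneg_left this ht0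
    by_contra hne
    have : 0 < ‖x - y‖ := norm_pos_iff.2 (sub_ne_zero.2 hne)
    nlinarith
  have hsurj : ∀ t : ℝ, 0 ≤ t → t * L < 1 → ∀ y : (EuclideanSpace ℝ (Fin n)), ∃ x, x + t • h x = y := by
    intro t ht0 ht y
    have hc : ContractingWith (t * L).toNNReal (fun x => y - t • h x) := by
      refine ⟨?_, LipschitzWith.of_dist_le_mul fun a b => ?_⟩
      · rw [← NNReal.coe_lt_coe, Real.coe_toNNReal _ (by positivity)]
        exact ht
      · rw [Real.coe_toNNReal _ (by positivity), dist_sub_left, dist_smul₀,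
          Real.norm_of_nonneg ht0, mul_assoc]
        refine mul_le_mul_of_nonneg_left ?_ ht0
        have := hhL.dist_le_mul a b
        rwa [NNReal.coe_add, NNReal.coe_one, ← hLdef] at this
    refine ⟨hc.fixedPoint _, ?_⟩
    have := hc.fixedPoint_isFixedPt
    unfold Function.IsFixedPt at this
    simp only at this
    nth_rewrite 1 [← this]
    abel
  have himage : ∀ t : ℝ, 0 ≤ t → t < 1 → t * L < 1 →
      (fun x => x + t • (r x - x)) '' ball (0 : (EuclideanSpace ℝ (Fin n))) 1 = ball 0 1 := by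
    intro t ht0 ht1 htL
    ext y
    constructor
    · rintro ⟨x, hx, rfl⟩
      rw [mem_ball_zero_iff] at hx ⊢
      have hxc : x ∈ closedBall (0 : (EuclideanSpace ℝ (Fin n))) 1 := mem_closedBall_zero_iff.2 hx.le
      have e : x + t • (r x - x) = (1 - t) • x + t • r x := by
        rw [smul_sub, sub_smul, one_smul]; abel
      simp only
      rw [e]
      calc ‖(1 - t) • x + t • r x‖ ≤ ‖(1 - t) • x‖ + ‖t • r x‖ := norm_add_le _ _
        _ = (1 - t) * ‖x‖ + t * ‖r x‖ := by
            rw [norm_smul, norm_smul, Real.norm_of_nonneg ht0,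
              Real.norm_of_nonneg (by linarith : (0 : ℝ) ≤ 1 - t)]
        _ < 1 := by rw [h1 x hxc]; nlinarith
    · intro hy
      obtain ⟨x, hx⟩ := hsurj t ht0 htL y
      have hxb : ‖x‖ < 1 := by
        by_contra hge
        push Not at hge
        rw [hh0 x hge, smul_zero, add_zero] at hx
        rw [mem_ball_zero_iff, ← hx] at hy
        linarith
      refine ⟨x, mem_ball_zero_iff.2 hxb, ?_⟩
      simp only
      rw [← hhin x (mem_closedBall_zero_iff.2 hxb.le)]
      exact hx
  -- derivative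
  set M : (EuclideanSpace ℝ (Fin n)) → (EuclideanSpace ℝ (Fin n)) →L[ℝ] (EuclideanSpace ℝ (Fin n)) := fun x => fderiv ℝ r x - ContinuousLinearMap.id ℝ (EuclideanSpace ℝ (Fin n)) with hM
  have hfd : ∀ t : ℝ, ∀ x ∈ ball (0 : (EuclideanSpace ℝ (Fin n))) 1, HasFDerivAt (fun x => x + t • (r x - x))
      (ContinuousLinearMap.id ℝ (EuclideanSpace ℝ (Fin n)) + t • M x) x := by
    intro t x hx
    have hxc : x ∈ closedBall (0 : (EuclideanSpace ℝ (Fin n))) 1 := ball_subset_closedBall hx
    have e := ((hr x hxc).differentiableAt one_ne_zero).hasFDerivAt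
    exact (hasFDerivAt_id x).add ((e.sub (hasFDerivAt_id x)).const_smul t)
  have hMbound : ∀ x ∈ ball (0 : (EuclideanSpace ℝ (Fin n))) 1, ‖M x‖ ≤ L := by
    intro x hx
    have hxc : x ∈ closedBall (0 : (EuclideanSpace ℝ (Fin n))) 1 := ball_subset_closedBall hx
    have e := ((hr x hxc).differentiableAt one_ne_zero).hasFDerivAt
    have e2 : ‖fderiv ℝ r x‖ ≤ K :=
      e.le_of_lipschitzOn (Filter.mem_of_superset (isOpen_ball.mem_nhds hx) ball_subset_closedBall)
        hK
    calc ‖M x‖ ≤ ‖fderiv ℝ r x‖ + ‖ContinuousLinearMap.id ℝ (EuclideanSpace ℝ (Fin n))‖ := norm_sub_le _ _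
      _ ≤ K + 1 := add_le_add e2 ContinuousLinearMap.norm_id_le
  -- the integral for small `t`
  have hint : ∀ t : ℝ, 0 ≤ t → t < 1 → t * L < 1 →
      ∫ x in ball (0 : (EuclideanSpace ℝ (Fin n))) 1, (ContinuousLinearMap.id ℝ (EuclideanSpace ℝ (Fin n)) + t • M x).det =
        (volume (ball (0 : (EuclideanSpace ℝ (Fin n))) 1)).toReal := by
    intro t ht0 ht1 htL
    have hinjOn : InjOn (fun x => x + t • (r x - x)) (ball (0 : (EuclideanSpace ℝ (Fin n))) 1) := by
      intro x hx y hy hxy
      simp only at hxy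
      rw [← hhin x (ball_subset_closedBall hx), ← hhin y (ball_subset_closedBall hy)] at hxy
      exact hinj t ht0 htL hxy
    have e := integral_image_eq_integral_abs_det_fderiv_smul volume measurableSet_ball
      (fun x hx => (hfd t x hx).hasFDerivWithinAt) hinjOn (fun _ => (1 : ℝ))
    rw [himage t ht0 ht1 htL] at e
    rw [setIntegral_const, smul_eq_mul, mul_one] at e
    rw [← Measure.real, e]
    refine setIntegral_congr_fun measurableSet_ball fun x hx => ?_
    have hp : 0 < (ContinuousLinearMap.id ℝ (EuclideanSpace ℝ (Fin n)) + t • M x).det :=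
      det_pos_of_small _ ht0 (lt_of_le_of_lt (mul_le_mul_of_nonneg_left (hMbound x hx) ht0) htL)
    simp only [smul_eq_mul, mul_one]
    rw [abs_of_pos hp]
  -- at `t = 1` the determinant vanishes
  have hzero : ∀ x ∈ ball (0 : (EuclideanSpace ℝ (Fin n))) 1, (ContinuousLinearMap.id ℝ (EuclideanSpace ℝ (Fin n)) + M x).det = 0 := by
    intro x hx
    have hxc : x ∈ closedBall (0 : (EuclideanSpace ℝ (Fin n))) 1 := ball_subset_closedBall hx
    have eM : ContinuousLinearMap.id ℝ (EuclideanSpace ℝ (Fin n)) + M x = fderiv ℝ r x := by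
      rw [hM]; simp only; abel
    rw [eM]
    have e := ((hr x hxc).differentiableAt one_ne_zero).hasFDerivAt
    have e2 : HasFDerivAt (fun y => inner ℝ (r y) (r y))
        ((0 : (EuclideanSpace ℝ (Fin n)) →L[ℝ] ℝ)) x := by
      refine (hasFDerivAt_const (1 : ℝ) x).congr_of_eventuallyEq ?_
      filter_upwards [isOpen_ball.mem_nhds hx] with y hy
      rw [real_inner_self_eq_norm_sq, h1 y (ball_subset_closedBall hy), one_pow]
    have e3 := e.inner ℝ e
    have e4 := e3.unique e2
    by_contra hne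
    have hu : IsUnit (LinearMap.det ((fderiv ℝ r x : (EuclideanSpace ℝ (Fin n)) →L[ℝ] (EuclideanSpace ℝ (Fin n))) : (EuclideanSpace ℝ (Fin n)) →ₗ[ℝ] (EuclideanSpace ℝ (Fin n)))) :=
      isUnit_iff_ne_zero.2 hne
    have hsurj' : Function.Surjective ((fderiv ℝ r x : (EuclideanSpace ℝ (Fin n)) →L[ℝ] (EuclideanSpace ℝ (Fin n))) : (EuclideanSpace ℝ (Fin n)) →ₗ[ℝ] (EuclideanSpace ℝ (Fin n))) :=
      (LinearMap.isUnit_iff_isUnit_det _).2 hu |>.elim fun u hu' => by
        rw [← hu']
        exact (LinearMap.GeneralLinearGroup.generalLinearEquiv ℝ (EuclideanSpace ℝ (Fin n)) u).surjective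
    obtain ⟨v, hv⟩ := hsurj' (r x)
    have e5 := congrArg (fun T : (EuclideanSpace ℝ (Fin n)) →L[ℝ] ℝ => T v) e4
    simp only [zero_apply] at e5
    have e6 : inner ℝ (r x) (r x) + inner ℝ (r x) (r x) = (0 : ℝ) := by
      have hv' : fderiv ℝ r x v = r x := hv
      simpa [hv'] using e5
    rw [real_inner_self_eq_norm_sq, h1 x hxc] at e6
    norm_num at e6
  -- interpolation
  set t0 : ℝ := min (1 / 2) (1 / (2 * L)) with ht0
  have ht0pos : 0 < t0 := lt_min (by norm_num) (by positivity)
  set v : Fin (n + 1) → ℝ := fun i => t0 / ((i : ℝ) + 1) with hv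
  have hvinj : Function.Injective v := by
    intro i j hij
    simp only [hv] at hij
    have hi : (0 : ℝ) < (i : ℝ) + 1 := by positivity
    have hj : (0 : ℝ) < (j : ℝ) + 1 := by positivity
    rw [div_eq_div_iff hi.ne' hj.ne'] at hij
    have := mul_left_cancel₀ ht0pos.ne' hij
    have h2 : (j : ℝ) = i := by linarith
    exact Fin.ext (by exact_mod_cast h2.symm)
  have hvle : ∀ i, v i ≤ t0 := by
    intro i
    simp only [hv]
    exact div_le_self ht0pos.le (by have : (0 : ℝ) ≤ (i : ℝ) := by positivity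
                                    linarith)
  have hvpos : ∀ i, 0 ≤ v i := fun i => by simp only [hv]; positivity
  have hvlt1 : ∀ i, v i < 1 := fun i =>
    lt_of_le_of_lt ((hvle i).trans (min_le_left _ _)) (by norm_num)
  have hvL : ∀ i, v i * L < 1 := by
    intro i
    have := (hvle i).trans (min_le_right _ _)
    calc v i * L ≤ 1 / (2 * L) * L := mul_le_mul_of_nonneg_right this hL.le
      _ = 1 / 2 := by field_simp
      _ < 1 := by norm_num
  obtain ⟨c, hc1, hc⟩ := det_interp_clm v hvinj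
  have hcontM : ContinuousOn M (closedBall (0 : (EuclideanSpace ℝ (Fin n))) 1) := by
    intro x hx
    exact (((hr x hx).continuousAt_fderiv one_ne_zero).sub continuousAt_const).continuousWithinAt
  have hI : ∀ i, IntegrableOn (fun x => c i * (ContinuousLinearMap.id ℝ (EuclideanSpace ℝ (Fin n)) + v i • M x).det)
      (ball (0 : (EuclideanSpace ℝ (Fin n))) 1) := by
    intro i
    refine IntegrableOn.mono_set ?_ ball_subset_closedBall
    refine ContinuousOn.integrableOn_compact (isCompact_closedBall _ _) ?_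
    have c1 : ContinuousOn (fun x => v i • M x) (closedBall (0 : (EuclideanSpace ℝ (Fin n))) 1) :=
      hcontM.const_smul (v i)
    have c2 : ContinuousOn (fun x => ContinuousLinearMap.id ℝ (EuclideanSpace ℝ (Fin n)) + v i • M x)
        (closedBall (0 : (EuclideanSpace ℝ (Fin n))) 1) := continuousOn_const.add c1
    have c3 : ContinuousOn (fun x => (ContinuousLinearMap.id ℝ (EuclideanSpace ℝ (Fin n)) +
        v i • M x).det) (closedBall (0 : (EuclideanSpace ℝ (Fin n))) 1) :=
      ContinuousLinearMap.continuous_det.comp_continuousOn c2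
    exact continuousOn_const.mul c3
  have hfinal : ∫ x in ball (0 : (EuclideanSpace ℝ (Fin n))) 1, (ContinuousLinearMap.id ℝ (EuclideanSpace ℝ (Fin n)) + M x).det =
      (volume (ball (0 : (EuclideanSpace ℝ (Fin n))) 1)).toReal := by
    calc ∫ x in ball (0 : (EuclideanSpace ℝ (Fin n))) 1, (ContinuousLinearMap.id ℝ (EuclideanSpace ℝ (Fin n)) + M x).det
        = ∫ x in ball (0 : (EuclideanSpace ℝ (Fin n))) 1, ∑ i, c i * (ContinuousLinearMap.id ℝ (EuclideanSpace ℝ (Fin n)) + v i • M x).det := by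
          refine setIntegral_congr_fun measurableSet_ball fun x _ => ?_
          exact hc (M x)
      _ = ∑ i, ∫ x in ball (0 : (EuclideanSpace ℝ (Fin n))) 1, c i * (ContinuousLinearMap.id ℝ (EuclideanSpace ℝ (Fin n)) + v i • M x).det :=
          integral_finsetSum _ fun i _ => hI i
      _ = ∑ i, c i * (volume (ball (0 : (EuclideanSpace ℝ (Fin n))) 1)).toReal := by
          refine Finset.sum_congr rfl fun i _ => ?_
          rw [integral_const_mul, hint (v i) (hvpos i) (hvlt1 i) (hvL i)]
      _ = _ := by rw [← Finset.sum_mul, hc1, one_mul]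
  have hz : ∫ x in ball (0 : (EuclideanSpace ℝ (Fin n))) 1, (ContinuousLinearMap.id ℝ (EuclideanSpace ℝ (Fin n)) + M x).det = 0 := by
    rw [setIntegral_congr_fun measurableSet_ball hzero, integral_zero]
  rw [hz] at hfinal
  have hvol : 0 < (volume (ball (0 : (EuclideanSpace ℝ (Fin n))) 1)).toReal :=
    ENNReal.toReal_pos (isOpen_ball.measure_pos volume ⟨0, mem_ball_self one_pos⟩).ne'
      measure_ball_lt_top.ne
  linarith

end main

end Brouwer
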